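import Mathlib

open Finset

namespace Vale.Agent.Lib.P063

/-- `μ_p(P)`: probability that a `p`-random subset of the finite ground type `α` lies in `P`. -/
noncomputable def mu {α : Type} [Fintype α] (p : ℝ) (P : Finset (Finset α)) : ℝ :=
  ∑ H ∈ P, p ^ H.card * (1 - p) ^ (Fintype.card α - H.card)

/-- `p_a(P) = inf {p ∈ [0,1] : μ_p(P) ≥ a}` -/
noncomputable def pcrit {α : Type} [Fintype α] (a : ℝ) (P : Finset (Finset α)) : ℝ :=
  sInf {p : ℝ | 0 ≤ p ∧ p ≤ 1 ∧ a ≤ mu p P}

/-- threshold width `w_ε(P) = p_{1-ε}(P) - p_ε(P)` -/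
noncomputable def width {α : Type} [Fintype α] (ε : ℝ) (P : Finset (Finset α)) : ℝ :=
  pcrit (1 - ε) P - pcrit ε P

/-- `P` is increasing (closed under supersets). -/
def Increasing {α : Type} (P : Finset (Finset α)) : Prop := ∀ A ∈ P, ∀ B, A ⊆ B → B ∈ P

/-- `P` is nontrivial: neither empty nor everything. -/
def NontrivialFamily {α : Type} [Fintype α] [DecidableEq α] (P : Finset (Finset α)) : Prop :=
  P.Nonempty ∧ P ≠ univ

/-- the `r`-subsets of `[n]` -/
abbrev Edge (n r : ℕ) := {e : Finset (Fin n) // e.card = r}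

/-- action of a vertex permutation on edges -/
def permEdge {n r : ℕ} (σ : Equiv.Perm (Fin n)) (e : Edge n r) : Edge n r :=
  ⟨e.1.map σ.toEmbedding, by rw [card_map]; exact e.2⟩

/-- `P` is an `r`-uniform hypergraph property on `n` vertices: invariant under all vertex
permutations. -/
def IsHypergraphProperty {n r : ℕ} (P : Finset (Finset (Edge n r))) : Prop :=
  ∀ σ : Equiv.Perm (Fin n), ∀ H ∈ P, H.image (permEdge σ) ∈ P

end Vale.Agent.Lib.P063
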