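import Vale.Agent.Lib.P063.Width

open Finset

namespace Vale.Agent.Lib.P063

/-- the property of containing a complete `r`-uniform hypergraph on some `k` vertices -/
def cliqueProp (n r k : ℕ) : Finset (Finset (Edge n r)) :=
  univ.filter (fun H => ∃ K : Finset (Fin n), K.card = k ∧ ∀ e : Edge n r, e.1 ⊆ K → e ∈ H)

/-- edges inside `K` -/
def edgesIn (n r : ℕ) (K : Finset (Fin n)) : Finset (Edge n r) := univ.filter (fun e => e.1 ⊆ K)

theorem card_edgesIn (n r : ℕ) (K : Finset (Fin n)) : (edgesIn n r K).card = K.card.choose r := by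
  have h : (edgesIn n r K).map ⟨Subtype.val, Subtype.val_injective⟩ = powersetCard r K := by
    ext e
    simp only [edgesIn, mem_map, mem_filter, mem_univ, true_and, Function.Embedding.coeFn_mk,
      mem_powersetCard]
    constructor
    · rintro ⟨e', he', rfl⟩
      exact ⟨he', e'.2⟩
    · rintro ⟨h1, h2⟩
      exact ⟨⟨e, h2⟩, h1, rfl⟩
  rw [← card_map, h, card_powersetCard]

theorem mem_cliqueProp {n r k : ℕ} {H : Finset (Edge n r)} :
    H ∈ cliqueProp n r k ↔ ∃ K : Finset (Fin n), K.card = k ∧ edgesIn n r K ⊆ H := by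
  simp only [cliqueProp, mem_filter, mem_univ, true_and, edgesIn, subset_iff]

theorem cliqueProp_increasing (n r k : ℕ) : Increasing (cliqueProp n r k) := by
  intro A hA B hAB
  rw [mem_cliqueProp] at hA ⊢
  obtain ⟨K, hK, hsub⟩ := hA
  exact ⟨K, hK, hsub.trans hAB⟩

theorem cliqueProp_invariant (n r k : ℕ) : IsHypergraphProperty (cliqueProp n r k) := by
  intro σ H hH
  rw [mem_cliqueProp] at hH ⊢
  obtain ⟨K, hK, hsub⟩ := hH
  refine ⟨K.map σ.toEmbedding, by rw [card_map]; exact hK, ?_⟩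
  intro e he
  simp only [edgesIn, mem_filter, mem_univ, true_and] at he
  rw [mem_image]
  refine ⟨permEdge σ.symm e, ?_, ?_⟩
  · apply hsub
    simp only [edgesIn, mem_filter, mem_univ, true_and, permEdge]
    intro x hx
    rw [mem_map] at hx
    obtain ⟨y, hy, rfl⟩ := hx
    have := he hy
    rw [mem_map] at this
    obtain ⟨z, hz, hzy⟩ := this
    simp only [Equiv.coe_toEmbedding] at hzy ⊢
    rw [← hzy]
    simpa using hz
  · apply Subtype.ext
    simp only [permEdge]
    ext x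
    simp only [mem_map, Equiv.coe_toEmbedding]
    constructor
    · rintro ⟨y, ⟨z, hz, rfl⟩, rfl⟩
      simpa using hz
    · intro hx
      exact ⟨σ.symm x, ⟨x, hx, rfl⟩, by simp⟩

theorem cliqueProp_nontrivial (n r k : ℕ) (hrk : r ≤ k) (hkn : k ≤ n) :
    NontrivialFamily (cliqueProp n r k) := by
  constructor
  · obtain ⟨K, _, hK⟩ := exists_subset_card_eq (s := (univ : Finset (Fin n))) (n := k) (by simpa using hkn)
    exact ⟨univ, mem_cliqueProp.mpr ⟨K, hK, subset_univ _⟩⟩
  · intro h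
    have h0 : (∅ : Finset (Edge n r)) ∈ cliqueProp n r k := by rw [h]; exact mem_univ _
    rw [mem_cliqueProp] at h0
    obtain ⟨K, hK, hsub⟩ := h0
    have hc := card_edgesIn n r K
    rw [subset_empty.mp hsub, card_empty, hK] at hc
    have := Nat.choose_pos hrk
    omega

theorem cliqueProp_witness (n r k : ℕ) : ∀ H ∈ cliqueProp n r k,
    ∃ W ∈ cliqueProp n r k, W ⊆ H ∧ W.card ≤ k.choose r := by
  intro H hH
  rw [mem_cliqueProp] at hH
  obtain ⟨K, hK, hsub⟩ := hH
  refine ⟨edgesIn n r K, mem_cliqueProp.mpr ⟨K, hK, Subset.refl _⟩, hsub, ?_⟩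
  rw [card_edgesIn, hK]

theorem mu_cliqueProp_le (n r k : ℕ) (p : ℝ) (hp0 : 0 ≤ p) (hp1 : p ≤ 1) :
    mu p (cliqueProp n r k) ≤ (n.choose k : ℝ) * p ^ (k.choose r) := by
  have h := mu_le_first_moment (cliqueProp n r k) (powersetCard k (univ : Finset (Fin n)))
    (fun K => edgesIn n r K) (by
      intro H hH
      rw [mem_cliqueProp] at hH
      obtain ⟨K, hK, hsub⟩ := hH
      exact ⟨K, mem_powersetCard.mpr ⟨subset_univ _, hK⟩, hsub⟩) p hp0 hp1
  refine h.trans (le_of_eq ?_)
  rw [sum_congr rfl (g := fun _ => p ^ (k.choose r))]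
  · rw [sum_const, card_powersetCard, card_univ, Fintype.card_fin, nsmul_eq_mul]
  · intro K hK
    rw [card_edgesIn, (mem_powersetCard.mp hK).2]

theorem half_le_pcrit (n r k : ℕ) (hrk : r ≤ k) (hkn : k ≤ n) (ε : ℝ) (hε1 : ε ≤ 1)
    (h : (n.choose k : ℝ) * (1 / 2) ^ (k.choose r) < ε) :
    1 / 2 ≤ pcrit ε (cliqueProp n r k) := by
  have hu := univ_mem_of _ (cliqueProp_increasing n r k) (cliqueProp_nontrivial n r k hrk hkn)
  apply le_csInf ⟨_, pcrit_mem ε hε1 _ hu⟩
  intro p hp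
  by_contra hcon
  push Not at hcon
  have h1 := mu_cliqueProp_le n r k p hp.1 hp.2.1
  have h2 : (n.choose k : ℝ) * p ^ (k.choose r) ≤ (n.choose k : ℝ) * (1 / 2) ^ (k.choose r) :=
    mul_le_mul_of_nonneg_left (pow_le_pow_left₀ hp.1 hcon.le _) (by positivity)
  linarith [hp.2.2]

/-- width of the clique property -/
theorem width_cliqueProp_ge (n r k : ℕ) (hrk : r ≤ k) (hkn : k ≤ n) (ε : ℝ) (hε0 : 0 < ε)
    (hε : ε < 1 / 2) (h : (n.choose k : ℝ) * (1 / 2) ^ (k.choose r) < ε) :
    Real.log ((1 - ε) / ε) / (2 * (k.choose r : ℝ)) ≤ width ε (cliqueProp n r k) := by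
  have hm : 1 ≤ k.choose r := Nat.choose_pos hrk
  have hmpos : (0:ℝ) < (k.choose r : ℝ) := by exact_mod_cast hm
  have h1 := width_ge _ (cliqueProp_increasing n r k) (cliqueProp_nontrivial n r k hrk hkn)
    (k.choose r) hm (cliqueProp_witness n r k) ε hε0 hε
  have h2 := half_le_pcrit n r k hrk hkn ε (by linarith) h
  have hlog : 0 ≤ Real.log ((1 - ε) / ε) := by
    apply Real.log_nonneg
    rw [le_div_iff₀ hε0]
    linarith
  refine le_trans ?_ h1
  rw [div_le_div_iff₀ (by positivity) hmpos]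
  nlinarith [mul_nonneg hlog hmpos.le]

end Vale.Agent.Lib.P063
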