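import Vale.Agent.Lib.P063.Basic

open Finset

namespace Vale.Agent.Lib.P063

variable {α : Type} [Fintype α] [DecidableEq α]

omit [Fintype α] in
/-- reindexing: sets between `W` and `H'` -/
theorem sum_between (W H' : Finset α) (hW : W ⊆ H') (f : Finset α → ℝ) :
    ∑ H ∈ H'.powerset.filter (fun H => W ⊆ H), f H = ∑ A ∈ (H' \ W).powerset, f (W ∪ A) := by
  apply sum_nbij' (fun H => H \ W) (fun A => W ∪ A)
  · intro H hH
    rw [mem_filter, mem_powerset] at hH
    rw [mem_powerset]
    exact sdiff_subset_sdiff hH.1 (Subset.refl _)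
  · intro A hA
    rw [mem_powerset] at hA
    rw [mem_filter, mem_powerset]
    exact ⟨union_subset hW (hA.trans sdiff_subset), subset_union_left⟩
  · intro H hH
    rw [mem_filter] at hH
    exact union_sdiff_of_subset hH.2
  · intro A hA
    rw [mem_powerset] at hA
    have hd : Disjoint A W := disjoint_of_subset_left hA sdiff_disjoint
    rw [union_sdiff_cancel_left hd.symm]
  · intro H hH
    rw [mem_filter] at hH
    rw [union_sdiff_of_subset hH.2]

omit [Fintype α] in
theorem lemmaB (W H' : Finset α) (hW : W ⊆ H') (θ : ℝ) :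
    ∑ H ∈ H'.powerset.filter (fun H => W ⊆ H), θ ^ H.card * (1 - θ) ^ (H'.card - H.card)
      = θ ^ W.card := by
  rw [sum_between W H' hW]
  have h : ∀ A ∈ (H' \ W).powerset, θ ^ (W ∪ A).card * (1 - θ) ^ (H'.card - (W ∪ A).card)
      = θ ^ W.card * (θ ^ A.card * (1 - θ) ^ ((H' \ W).card - A.card)) := by
    intro A hA
    rw [mem_powerset] at hA
    have hd : Disjoint W A := (disjoint_of_subset_left hA sdiff_disjoint).symm
    rw [card_union_of_disjoint hd, card_sdiff_of_subset hW, pow_add, Nat.sub_add_eq, mul_assoc]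
  rw [sum_congr rfl h, ← mul_sum, sum_pow_mul_eq_add_pow]
  simp

theorem lemmaA (H : Finset α) (θ p : ℝ) :
    (θ * p) ^ H.card * (1 - θ * p) ^ (Fintype.card α - H.card)
      = ∑ H' ∈ univ.filter (fun H' => H ⊆ H'),
          (p ^ H'.card * (1 - p) ^ (Fintype.card α - H'.card)) *
            (θ ^ H.card * (1 - θ) ^ (H'.card - H.card)) := by
  have e : univ.filter (fun H' : Finset α => H ⊆ H')
      = (univ : Finset α).powerset.filter (fun H' => H ⊆ H') := by
    ext; simp
  rw [e, sum_between H univ (subset_univ _)]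
  have h : ∀ A ∈ (univ \ H).powerset,
      (p ^ (H ∪ A).card * (1 - p) ^ (Fintype.card α - (H ∪ A).card)) *
            (θ ^ H.card * (1 - θ) ^ ((H ∪ A).card - H.card))
      = (θ * p) ^ H.card * ((p * (1 - θ)) ^ A.card * (1 - p) ^ ((univ \ H).card - A.card)) := by
    intro A hA
    rw [mem_powerset] at hA
    have hd : Disjoint H A := (disjoint_of_subset_left hA sdiff_disjoint).symm
    rw [card_union_of_disjoint hd, card_sdiff_of_subset (subset_univ _), card_univ, pow_add,
      Nat.sub_add_eq, Nat.add_sub_cancel_left, mul_pow, mul_pow]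
    ring
  rw [sum_congr rfl h, ← mul_sum, sum_pow_mul_eq_add_pow, card_sdiff_of_subset (subset_univ _),
    card_univ]
  congr 2
  ring

/-- coupling inequality -/
theorem mu_mul_ge (P : Finset (Finset α)) (hinc : Increasing P) (m : ℕ)
    (hwit : ∀ H ∈ P, ∃ W ∈ P, W ⊆ H ∧ W.card ≤ m) (θ p : ℝ) (hθ0 : 0 ≤ θ) (hθ1 : θ ≤ 1)
    (hp0 : 0 ≤ p) (hp1 : p ≤ 1) :
    θ ^ m * mu p P ≤ mu (θ * p) P := by
  unfold mu
  have h1 : ∑ H ∈ P, (θ * p) ^ H.card * (1 - θ * p) ^ (Fintype.card α - H.card)
      = ∑ H' : Finset α, ∑ H ∈ P.filter (fun H => H ⊆ H'),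
          (p ^ H'.card * (1 - p) ^ (Fintype.card α - H'.card)) *
            (θ ^ H.card * (1 - θ) ^ (H'.card - H.card)) := by
    rw [sum_congr rfl (fun H _ => lemmaA H θ p)]
    apply sum_comm'
    intro H H'
    simp only [mem_filter, mem_univ, true_and, and_true]
  rw [h1, mul_sum]
  have h1p : 0 ≤ 1 - p := by linarith
  have h1θ : 0 ≤ 1 - θ := by linarith
  calc ∑ H' ∈ P, θ ^ m * (p ^ H'.card * (1 - p) ^ (Fintype.card α - H'.card))
      ≤ ∑ H' ∈ P, ∑ H ∈ P.filter (fun H => H ⊆ H'),
          (p ^ H'.card * (1 - p) ^ (Fintype.card α - H'.card)) *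
            (θ ^ H.card * (1 - θ) ^ (H'.card - H.card)) := by
        apply sum_le_sum
        intro H' hH'
        obtain ⟨W, hWP, hWH, hWm⟩ := hwit H' hH'
        rw [← mul_sum, mul_comm]
        apply mul_le_mul_of_nonneg_left _ (by positivity)
        calc θ ^ m ≤ θ ^ W.card := pow_le_pow_of_le_one hθ0 hθ1 hWm
          _ = _ := (lemmaB W H' hWH θ).symm
          _ ≤ _ := by
            apply sum_le_sum_of_subset_of_nonneg
            · intro H hH
              rw [mem_filter, mem_powerset] at hH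
              rw [mem_filter]
              exact ⟨hinc W hWP H hH.2, hH.1⟩
            · intro H _ _
              positivity
    _ ≤ _ := by
        apply sum_le_sum_of_subset_of_nonneg (subset_univ _)
        intro H' _ _
        apply sum_nonneg
        intro H _
        positivity

/-- `μ_p` of the up-set generated by `W` -/
theorem mu_upset (W : Finset α) (p : ℝ) :
    mu p (univ.filter (fun H => W ⊆ H)) = p ^ W.card := by
  unfold mu
  have e : univ.filter (fun H' : Finset α => W ⊆ H')
      = (univ : Finset α).powerset.filter (fun H' => W ⊆ H') := by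
    ext; simp
  rw [e]
  have := lemmaB W univ (subset_univ _) p
  rw [card_univ] at this
  exact this

theorem sum_biUnion_le_sum {γ β : Type} [DecidableEq γ] [DecidableEq β] (s : Finset γ)
    (t : γ → Finset β) (h : β → ℝ) (hh : ∀ b, 0 ≤ h b) :
    ∑ b ∈ s.biUnion t, h b ≤ ∑ a ∈ s, ∑ b ∈ t a, h b := by
  induction s using Finset.induction_on with
  | empty => simp
  | insert a s ha ih =>
    rw [biUnion_insert, sum_insert ha]
    have h1 := sum_union_inter (s₁ := t a) (s₂ := s.biUnion t) (f := h)
    have h2 : 0 ≤ ∑ b ∈ t a ∩ s.biUnion t, h b := sum_nonneg (fun b _ => hh b)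
    linarith

/-- first moment bound -/
theorem mu_le_first_moment {ι : Type} [DecidableEq ι] (P : Finset (Finset α)) (s : Finset ι)
    (W : ι → Finset α) (hW : ∀ H ∈ P, ∃ i ∈ s, W i ⊆ H) (p : ℝ) (hp0 : 0 ≤ p) (hp1 : p ≤ 1) :
    mu p P ≤ ∑ i ∈ s, p ^ (W i).card := by
  have h1p : 0 ≤ 1 - p := by linarith
  have hsub : P ⊆ s.biUnion (fun i => univ.filter (fun H => W i ⊆ H)) := by
    intro H hH
    obtain ⟨i, hi, hWi⟩ := hW H hH
    rw [mem_biUnion]
    exact ⟨i, hi, by simp [hWi]⟩
  calc mu p P ≤ mu p (s.biUnion (fun i => univ.filter (fun H => W i ⊆ H))) := by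
        unfold mu
        apply sum_le_sum_of_subset_of_nonneg hsub
        intro H _ _
        positivity
    _ ≤ ∑ i ∈ s, mu p (univ.filter (fun H => W i ⊆ H)) := by
        unfold mu
        exact sum_biUnion_le_sum s _ _ (fun H => by positivity)
    _ = _ := by
        apply sum_congr rfl
        intro i _
        exact mu_upset (W i) p

end Vale.Agent.Lib.P063
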