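import Vale.Agent.Lib.P063.Clique

open Finset

namespace Vale.Agent.Lib.P063

/-- choice of the clique size -/
theorem param (r : ℕ) (hr : 2 ≤ r) (ε : ℝ) (hε0 : 0 < ε) (n : ℕ) (hn1 : 1 ≤ n)
    (B : ℝ) (hB : B = 2 ^ (r + 2) * (r.factorial : ℝ))
    (h1 : ((2 * r : ℕ) : ℝ) ^ (r - 1) < B * Real.log n)
    (h2 : 2 ^ (r - 1) * B * Real.log n ≤ n)
    (h3 : 1 / ε < n) :
    ∃ k : ℕ, r ≤ k ∧ k ≤ n ∧ (n.choose k : ℝ) * (1 / 2) ^ (k.choose r) < ε ∧
      ((k : ℝ) ^ (r - 1) ≤ 2 ^ (r - 1) * B * Real.log n) := by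
  set x := Real.log n with hx
  set s := r - 1 with hs
  have hs1 : 1 ≤ s := by omega
  have hrs : r = s + 1 := by omega
  have hBpos : 0 < B := by rw [hB]; positivity
  have hxpos : 0 < x := by
    by_contra hcon
    push Not at hcon
    have : B * x ≤ 0 := mul_nonpos_of_nonneg_of_nonpos hBpos.le hcon
    have h0 : (0:ℝ) ≤ ((2 * r : ℕ) : ℝ) ^ s := by positivity
    linarith
  have hex : ∃ k : ℕ, B * x ≤ (k : ℝ) ^ s := by
    obtain ⟨k, hk⟩ := exists_nat_ge (B * x)
    refine ⟨k, hk.trans ?_⟩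
    rcases Nat.eq_zero_or_pos k with h0 | hpos
    · subst h0
      have : 0 < B * x := by positivity
      simp at hk
      linarith
    · have hk1 : (1:ℝ) ≤ k := by exact_mod_cast hpos
      calc (k:ℝ) = (k:ℝ) ^ 1 := (pow_one _).symm
        _ ≤ (k:ℝ) ^ s := pow_le_pow_right₀ hk1 hs1
  classical
  set k := Nat.find hex with hk
  have hk1 : B * x ≤ (k : ℝ) ^ s := Nat.find_spec hex
  have hk2r : 2 * r ≤ k := by
    by_contra hcon
    push Not at hcon
    have : (k:ℝ) ^ s ≤ ((2 * r : ℕ) : ℝ) ^ s := by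
      apply pow_le_pow_left₀ (by positivity)
      exact_mod_cast hcon.le
    linarith
  have hkmin : ((k - 1 : ℕ) : ℝ) ^ s < B * x := by
    have := Nat.find_min hex (m := k - 1) (by omega)
    push Not at this
    exact this
  have hkle : (k : ℝ) ≤ 2 * ((k - 1 : ℕ) : ℝ) := by
    have : k ≤ 2 * (k - 1) := by omega
    exact_mod_cast this
  have hks : (k : ℝ) ^ s ≤ 2 ^ s * B * x := by
    calc (k : ℝ) ^ s ≤ (2 * ((k - 1 : ℕ) : ℝ)) ^ s := pow_le_pow_left₀ (by positivity) hkle s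
      _ = 2 ^ s * ((k - 1 : ℕ) : ℝ) ^ s := mul_pow _ _ _
      _ ≤ 2 ^ s * (B * x) := mul_le_mul_of_nonneg_left hkmin.le (by positivity)
      _ = 2 ^ s * B * x := by ring
  have hk1' : (1:ℝ) ≤ k := by
    have : 1 ≤ k := by omega
    exact_mod_cast this
  have hkn : k ≤ n := by
    have : (k:ℝ) ≤ n := by
      calc (k:ℝ) = (k:ℝ) ^ 1 := (pow_one _).symm
        _ ≤ (k:ℝ) ^ s := pow_le_pow_right₀ hk1' hs1
        _ ≤ _ := hks
        _ ≤ n := h2
    exact_mod_cast this
  refine ⟨k, by omega, hkn, ?_, hks⟩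
  -- lower bound for the binomial coefficient
  have hch : 4 * (k:ℝ) * x ≤ (k.choose r : ℝ) := by
    have hp := Nat.pow_le_choose (α := ℝ) r k
    have hhalf : (k:ℝ) / 2 ≤ ((k + 1 - r : ℕ) : ℝ) := by
      have : k ≤ 2 * (k + 1 - r) := by omega
      have h' : (k:ℝ) ≤ 2 * ((k + 1 - r : ℕ) : ℝ) := by exact_mod_cast this
      linarith
    have hfpos : (0:ℝ) < (r.factorial : ℝ) := by positivity
    calc 4 * (k:ℝ) * x = (k:ℝ) * (B * x) / (2 ^ r * (r.factorial : ℝ)) := by
          rw [hB, pow_add]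
          field_simp
          ring
      _ ≤ (k:ℝ) * (k:ℝ) ^ s / (2 ^ r * (r.factorial : ℝ)) := by
          apply div_le_div_of_nonneg_right _ (by positivity)
          exact mul_le_mul_of_nonneg_left hk1 (by positivity)
      _ = ((k:ℝ) / 2) ^ r / (r.factorial : ℝ) := by
          rw [hrs, pow_succ, div_pow, pow_succ, pow_succ]
          field_simp
      _ ≤ (((k + 1 - r : ℕ) : ℝ)) ^ r / (r.factorial : ℝ) := by
          apply div_le_div_of_nonneg_right _ hfpos.le
          exact pow_le_pow_left₀ (by positivity) hhalf r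
      _ ≤ _ := hp
  have hnpos : (0:ℝ) < n := by exact_mod_cast hn1
  have hlog2 : (1:ℝ) / 2 ≤ Real.log 2 := by
    have := Real.log_two_gt_d9
    linarith
  have e1 : (n.choose k : ℝ) ≤ Real.exp (k * x) := by
    calc (n.choose k : ℝ) ≤ (n:ℝ) ^ k := by exact_mod_cast Nat.choose_le_pow n k
      _ = Real.exp (k * x) := by
          rw [Real.exp_nat_mul, hx, Real.exp_log hnpos]
  have e2 : ((1:ℝ) / 2) ^ (k.choose r) = Real.exp (-(k.choose r : ℝ) * Real.log 2) := by
    rw [neg_mul, Real.exp_neg, Real.exp_nat_mul, Real.exp_log (by norm_num)]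
    simp
  calc (n.choose k : ℝ) * (1 / 2) ^ (k.choose r)
      ≤ Real.exp (k * x) * Real.exp (-(k.choose r : ℝ) * Real.log 2) := by
        rw [e2]
        exact mul_le_mul_of_nonneg_right e1 (Real.exp_pos _).le
    _ = Real.exp (k * x - (k.choose r : ℝ) * Real.log 2) := by
        rw [← Real.exp_add]
        congr 1
        ring
    _ ≤ Real.exp (-x) := by
        apply Real.exp_le_exp.mpr
        have hc0 : (0:ℝ) ≤ (k.choose r : ℝ) := by positivity
        have t1 : (k.choose r : ℝ) * (1 / 2) ≤ (k.choose r : ℝ) * Real.log 2 :=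
          mul_le_mul_of_nonneg_left hlog2 hc0
        have t2 : x ≤ (k:ℝ) * x := by nlinarith
        nlinarith
    _ = 1 / n := by
        rw [Real.exp_neg, hx, Real.exp_log hnpos, one_div]
    _ < ε := by
        rw [div_lt_iff₀ hnpos]
        rw [div_lt_iff₀ hε0] at h3
        linarith

end Vale.Agent.Lib.P063
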