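import Vale.Agent.Lib.P063.Coupling

open Finset

namespace Vale.Agent.Lib.P063

variable {α : Type} [Fintype α] [DecidableEq α]

omit [DecidableEq α] in
theorem continuous_mu (P : Finset (Finset α)) : Continuous (fun p : ℝ => mu p P) := by
  unfold mu
  fun_prop

theorem univ_mem_of (P : Finset (Finset α)) (hinc : Increasing P) (hnt : NontrivialFamily P) :
    univ ∈ P := by
  obtain ⟨A, hA⟩ := hnt.1
  exact hinc A hA univ (subset_univ _)

theorem empty_notMem_of (P : Finset (Finset α)) (hinc : Increasing P) (hnt : NontrivialFamily P) :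
    ∅ ∉ P := by
  intro h
  apply hnt.2
  ext B
  simp only [mem_univ, iff_true]
  exact hinc ∅ h B (empty_subset _)

theorem mu_one (P : Finset (Finset α)) (h : univ ∈ P) : mu 1 P = 1 := by
  unfold mu
  rw [sum_eq_single univ]
  · simp
  · intro H _ hne
    have hlt : H.card < Fintype.card α := by
      rw [← card_univ]
      exact card_lt_card (Finset.ssubset_iff_subset_ne.mpr ⟨subset_univ _, hne⟩)
    have : Fintype.card α - H.card ≠ 0 := by omega
    simp [this]
  · intro hh; exact absurd h hh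

omit [DecidableEq α] in
theorem isClosed_set (a : ℝ) (P : Finset (Finset α)) :
    IsClosed {p : ℝ | 0 ≤ p ∧ p ≤ 1 ∧ a ≤ mu p P} := by
  have h1 : IsClosed {p : ℝ | 0 ≤ p} := isClosed_le continuous_const continuous_id
  have h2 : IsClosed {p : ℝ | p ≤ 1} := isClosed_le continuous_id continuous_const
  have h3 : IsClosed {p : ℝ | a ≤ mu p P} := isClosed_le continuous_const (continuous_mu P)
  exact h1.inter (h2.inter h3)

omit [DecidableEq α] in
theorem bddBelow_set (a : ℝ) (P : Finset (Finset α)) :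
    BddBelow {p : ℝ | 0 ≤ p ∧ p ≤ 1 ∧ a ≤ mu p P} := ⟨0, fun _ hp => hp.1⟩

theorem pcrit_mem (a : ℝ) (ha : a ≤ 1) (P : Finset (Finset α)) (h : univ ∈ P) :
    pcrit a P ∈ {p : ℝ | 0 ≤ p ∧ p ≤ 1 ∧ a ≤ mu p P} := by
  apply (isClosed_set a P).csInf_mem _ (bddBelow_set a P)
  exact ⟨1, zero_le_one, le_refl _, by rw [mu_one P h]; exact ha⟩

omit [DecidableEq α] in
theorem mu_lt_of_lt_pcrit (a : ℝ) (P : Finset (Finset α)) (p : ℝ) (hp0 : 0 ≤ p) (hp1 : p ≤ 1)
    (hlt : p < pcrit a P) : mu p P < a := by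
  by_contra hcon
  push Not at hcon
  exact notMem_of_lt_csInf hlt (bddBelow_set a P) ⟨hp0, hp1, hcon⟩

theorem mu_pcrit_le (a : ℝ) (ha : a ≤ 1) (P : Finset (Finset α)) (h : univ ∈ P)
    (hpos : 0 < pcrit a P) : mu (pcrit a P) P ≤ a := by
  have hmem := pcrit_mem a ha P h
  have ht : Filter.Tendsto (fun p : ℝ => mu p P) (nhdsWithin (pcrit a P) (Set.Iio (pcrit a P)))
      (nhds (mu (pcrit a P) P)) :=
    ((continuous_mu P).tendsto _).mono_left nhdsWithin_le_nhds
  apply le_of_tendsto ht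
  have : Set.Ioo 0 (pcrit a P) ∈ nhdsWithin (pcrit a P) (Set.Iio (pcrit a P)) :=
    Ioo_mem_nhdsLT hpos
  filter_upwards [this] with p hp
  exact (mu_lt_of_lt_pcrit a P p hp.1.le (hp.2.le.trans hmem.2.1) hp.2).le

/-- General lower bound for the threshold width in terms of the witness size. -/
theorem width_ge (P : Finset (Finset α)) (hinc : Increasing P) (hnt : NontrivialFamily P)
    (m : ℕ) (hm : 1 ≤ m) (hwit : ∀ H ∈ P, ∃ W ∈ P, W ⊆ H ∧ W.card ≤ m)
    (ε : ℝ) (hε0 : 0 < ε) (hε : ε < 1 / 2) :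
    pcrit ε P * Real.log ((1 - ε) / ε) / m ≤ width ε P := by
  have hu := univ_mem_of P hinc hnt
  have h1 := pcrit_mem ε (by linarith) P hu
  have h2 := pcrit_mem (1 - ε) (by linarith) P hu
  set p1 := pcrit ε P with hp1
  set p2 := pcrit (1 - ε) P with hp2
  have hle : p1 ≤ p2 := by
    apply csInf_le (bddBelow_set ε P)
    exact ⟨h2.1, h2.2.1, by linarith [h2.2.2]⟩
  have hmpos : (0:ℝ) < m := by exact_mod_cast hm
  unfold width
  rw [← hp1, ← hp2]
  rcases h1.1.eq_or_lt with h0 | hpos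
  · rw [← h0]
    simp only [zero_mul, zero_div, sub_zero]
    exact h2.1
  · have hf1 : mu p1 P ≤ ε := mu_pcrit_le ε (by linarith) P hu hpos
    have hp2pos : 0 < p2 := lt_of_lt_of_le hpos hle
    have hθ0 : 0 ≤ p1 / p2 := by positivity
    have hθ1 : p1 / p2 ≤ 1 := (div_le_one hp2pos).mpr hle
    have hc := mu_mul_ge P hinc m hwit (p1 / p2) p2 hθ0 hθ1 h2.1 h2.2.1
    rw [div_mul_cancel₀ _ hp2pos.ne'] at hc
    have hc2 : (p1 / p2) ^ m * (1 - ε) ≤ ε := by
      calc (p1 / p2) ^ m * (1 - ε) ≤ (p1 / p2) ^ m * mu p2 P :=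
            mul_le_mul_of_nonneg_left h2.2.2 (by positivity)
        _ ≤ ε := hc.trans hf1
    set x := (p2 - p1) / p1 with hx
    have hx1 : p2 / p1 = 1 + x := by rw [hx]; field_simp; ring
    have hc3 : (1 - ε) / ε ≤ (p2 / p1) ^ m := by
      rw [div_le_iff₀ hε0]
      have e : (p2 / p1) ^ m * (p1 / p2) ^ m = 1 := by
        rw [← mul_pow]
        have : p2 / p1 * (p1 / p2) = 1 := by field_simp
        rw [this, one_pow]
      calc 1 - ε = (p2 / p1) ^ m * ((p1 / p2) ^ m * (1 - ε)) := by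
            rw [← mul_assoc, e, one_mul]
        _ ≤ (p2 / p1) ^ m * ε := mul_le_mul_of_nonneg_left hc2 (by positivity)
    have hc4 : (p2 / p1) ^ m ≤ Real.exp (m * x) := by
      rw [hx1, Real.exp_nat_mul]
      apply pow_le_pow_left₀
      · have : 0 ≤ x := by rw [hx]; apply div_nonneg (by linarith) hpos.le
        linarith
      · have := Real.add_one_le_exp x
        linarith
    have hc5 : Real.log ((1 - ε) / ε) ≤ m * x := by
      have hpos' : 0 < (1 - ε) / ε := div_pos (by linarith) hε0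
      calc Real.log ((1 - ε) / ε) ≤ Real.log (Real.exp (m * x)) :=
            Real.log_le_log hpos' (hc3.trans hc4)
        _ = m * x := Real.log_exp _
    rw [div_le_iff₀ hmpos]
    calc p1 * Real.log ((1 - ε) / ε) ≤ p1 * (m * x) := mul_le_mul_of_nonneg_left hc5 hpos.le
      _ = (p2 - p1) * m := by rw [hx]; field_simp

end Vale.Agent.Lib.P063
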